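import Mathlib

/-! Finite ferromagnetic Ising models: FKG, GHS. -/

namespace Vale.Agent.H15.Ising

open Finset

/-- numerical value of a Boolean spin -/
def sv (b : Bool) : ℝ := if b then 1 else -1

lemma sv_sq (b : Bool) : sv b * sv b = 1 := by cases b <;> simp [sv]
lemma abs_sv (b : Bool) : |sv b| = 1 := by cases b <;> simp [sv]
lemma sv_mono {a b : Bool} (h : a ≤ b) : sv a ≤ sv b := by
  revert h; cases a <;> cases b <;> simp [sv]

section fourReplicas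

/-- rotated single-site variables of four replicas -/
noncomputable def Y (l : Fin 4) (r : Bool × Bool × Bool × Bool) : ℝ :=
  match l with
  | 0 => (sv r.1 + sv r.2.1 + sv r.2.2.1 + sv r.2.2.2) / 2
  | 1 => (sv r.1 + sv r.2.1 - sv r.2.2.1 - sv r.2.2.2) / 2
  | 2 => (sv r.1 - sv r.2.1 + sv r.2.2.1 - sv r.2.2.2) / 2
  | 3 => (-sv r.1 + sv r.2.1 + sv r.2.2.1 - sv r.2.2.2) / 2

lemma zero_pow_nonneg' (n : ℕ) : (0:ℝ) ≤ 0 ^ n := pow_nonneg le_rfl n

lemma two_pow_add (n : ℕ) : (0:ℝ) ≤ 2 ^ n + (-2) ^ n := by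
  rcases Nat.even_or_odd n with h | h
  · rw [h.neg_pow]; positivity
  · rw [h.neg_pow]; simp

lemma single_site (a b c d : ℕ) :
    0 ≤ ∑ r : Bool × Bool × Bool × Bool, Y 0 r ^ a * Y 1 r ^ b * Y 2 r ^ c * Y 3 r ^ d := by
  have h1 := two_pow_add a
  have h2 := two_pow_add b
  have h3 := two_pow_add c
  have h4 := two_pow_add d
  have z1 := zero_pow_nonneg' a
  have z2 := zero_pow_nonneg' b
  have z3 := zero_pow_nonneg' c
  have z4 := zero_pow_nonneg' d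
  have key : ∑ r : Bool × Bool × Bool × Bool, Y 0 r ^ a * Y 1 r ^ b * Y 2 r ^ c * Y 3 r ^ d =
      (2 ^ a + (-2) ^ a) * (0 ^ b * 0 ^ c * 0 ^ d) + (2 ^ b + (-2) ^ b) * (0 ^ a * 0 ^ c * 0 ^ d)
      + (2 ^ c + (-2) ^ c) * (0 ^ a * 0 ^ b * 0 ^ d) + (2 ^ d + (-2) ^ d) * (0 ^ a * 0 ^ b * 0 ^ c)
      + (1 + (-1) ^ c * (-1) ^ d + (-1) ^ b * (-1) ^ d + (-1) ^ b * (-1) ^ c
        + (-1) ^ a * (-1) ^ b * (-1) ^ c * (-1) ^ d + (-1) ^ a * (-1) ^ b + (-1) ^ a * (-1) ^ c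
        + (-1) ^ a * (-1) ^ d) := by
    simp only [Fintype.sum_prod_type, Fintype.sum_bool, Y, sv]
    norm_num
    ring
  rw [key]
  have hs : (0:ℝ) ≤ (1 + (-1) ^ c * (-1) ^ d + (-1) ^ b * (-1) ^ d + (-1) ^ b * (-1) ^ c
        + (-1) ^ a * (-1) ^ b * (-1) ^ c * (-1) ^ d + (-1) ^ a * (-1) ^ b + (-1) ^ a * (-1) ^ c
        + (-1) ^ a * (-1) ^ d) := by
    rcases Nat.even_or_odd a with ha | ha <;> rcases Nat.even_or_odd b with hb | hb <;>
    rcases Nat.even_or_odd c with hc | hc <;> rcases Nat.even_or_odd d with hd | hd <;>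
    simp [ha.neg_one_pow, hb.neg_one_pow, hc.neg_one_pow, hd.neg_one_pow] <;> norm_num
  positivity

variable {ι : Type*} [Fintype ι] [DecidableEq ι]

abbrev Rep (ι : Type*) := ι → Bool × Bool × Bool × Bool

/-- the monoid of monomials -/
def Mon (ι : Type*) : Submonoid (Rep ι → ℝ) :=
  Submonoid.closure {f | ∃ (l : Fin 4) (x : ι), f = fun r => Y l (r x)}

lemma mon_form {M : Rep ι → ℝ} (hM : M ∈ Mon ι) :
    ∃ α : ι → Fin 4 → ℕ, M = fun r => ∏ i, ∏ l, Y l (r i) ^ α i l := by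
  induction hM using Submonoid.closure_induction with
  | mem f hf =>
    obtain ⟨l, x, rfl⟩ := hf
    refine ⟨fun i k => if i = x ∧ k = l then 1 else 0, ?_⟩
    funext r
    rw [Finset.prod_eq_single x]
    · rw [Finset.prod_eq_single l]
      · simp
      · intro b _ hb; simp [hb]
      · simp
    · intro b _ hb; apply Finset.prod_eq_one; intro k _; simp [hb]
    · simp
  | one => exact ⟨fun _ _ => 0, by funext r; simp⟩
  | mul f g _ _ hf hg =>
    obtain ⟨α, rfl⟩ := hf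
    obtain ⟨β, rfl⟩ := hg
    refine ⟨fun i l => α i l + β i l, ?_⟩
    funext r
    simp only [Pi.mul_apply, pow_add, Finset.prod_mul_distrib]

/-- positivity against all monomials -/
def Pos (F : Rep ι → ℝ) : Prop := ∀ M ∈ Mon ι, 0 ≤ ∑ r, F r * M r

lemma pos_one : Pos (fun _ : Rep ι => (1:ℝ)) := by
  intro M hM
  obtain ⟨α, rfl⟩ := mon_form hM
  simp only [one_mul]
  have : ∑ r : Rep ι, ∏ i, ∏ l, Y l (r i) ^ α i l
      = ∏ i, ∑ r : Bool × Bool × Bool × Bool, ∏ l, Y l r ^ α i l := by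
    rw [Finset.prod_univ_sum]
    simp
  rw [this]
  apply Finset.prod_nonneg
  intro i _
  have := single_site (α i 0) (α i 1) (α i 2) (α i 3)
  simpa [Fin.prod_univ_four] using this

lemma pos_mul_exp {F : Rep ι → ℝ} (hF : Pos F) {N : Rep ι → ℝ} (hN : N ∈ Mon ι) {c : ℝ}
    (hc : 0 ≤ c) : Pos (fun r => F r * Real.exp (c * N r)) := by
  intro M hM
  have h1 : ∀ r : Rep ι, HasSum (fun k : ℕ => F r * ((c * N r) ^ k / k.factorial) * M r)
      (F r * Real.exp (c * N r) * M r) := by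
    intro r
    have := NormedSpace.expSeries_div_hasSum_exp (𝔸 := ℝ) (c * N r)
    rw [← Real.exp_eq_exp_ℝ] at this
    exact (this.mul_left (F r)).mul_right (M r)
  have h2 : HasSum (fun k : ℕ => ∑ r : Rep ι, F r * ((c * N r) ^ k / k.factorial) * M r)
      (∑ r : Rep ι, F r * Real.exp (c * N r) * M r) := hasSum_sum (fun r _ => h1 r)
  refine h2.nonneg ?_
  intro k
  have h3 := hF (N ^ k * M) ((Mon ι).mul_mem ((Mon ι).pow_mem hN k) hM)
  have : ∑ r : Rep ι, F r * ((c * N r) ^ k / k.factorial) * M r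
      = c ^ k / k.factorial * ∑ r : Rep ι, F r * (N ^ k * M) r := by
    rw [Finset.mul_sum]
    apply Finset.sum_congr rfl
    intro r _
    simp only [Pi.mul_apply, Pi.pow_apply, mul_pow]
    ring
  rw [this]
  positivity

lemma pos_exp_sum {κ : Type*} (S : Finset κ) (c : κ → ℝ) (hc : ∀ j, 0 ≤ c j)
    (N : κ → Rep ι → ℝ) (hN : ∀ j, N j ∈ Mon ι) :
    Pos (fun r => Real.exp (∑ j ∈ S, c j * N j r)) := by
  classical
  induction S using Finset.induction_on with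
  | empty => simpa using pos_one (ι := ι)
  | insert j S hj ih =>
    have := pos_mul_exp ih (hN j) (hc j)
    simp only [Finset.sum_insert hj]
    intro M hM
    have h := this M hM
    simp only [← Real.exp_add] at h
    simpa [add_comm] using h

end fourReplicas

variable {ι : Type*} [Fintype ι] [DecidableEq ι]

/-- exponent of the Gibbs weight -/
noncomputable def Q (K : ι → ι → ℝ) (h : ι → ℝ) (s : ι → Bool) : ℝ :=
  (∑ x, ∑ y, K x y * (sv (s x) * sv (s y))) / 2 + ∑ x, h x * sv (s x)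

/-- unnormalised expectation -/
noncomputable def A (K : ι → ι → ℝ) (h : ι → ℝ) (f : (ι → Bool) → ℝ) : ℝ := ∑ s, Real.exp (Q K h s) * f s

lemma A_one_pos (K : ι → ι → ℝ) (h : ι → ℝ) : 0 < A K h (fun _ => 1) := by
  unfold A
  apply Finset.sum_pos
  · intro s _; positivity
  · exact Finset.univ_nonempty

/-- expectation -/
noncomputable def E (K : ι → ι → ℝ) (h : ι → ℝ) (f : (ι → Bool) → ℝ) : ℝ :=
  A K h f / A K h (fun _ => 1)

lemma A_eq (K : ι → ι → ℝ) (h : ι → ℝ) (f : (ι → Bool) → ℝ) :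
    A K h f = E K h f * A K h (fun _ => 1) := by
  unfold E; rw [div_mul_cancel₀]; exact (A_one_pos K h).ne'


section GHS

variable (K : ι → ι → ℝ) (h : ι → ℝ)

lemma sum4 (w : (ι → Bool) → ℝ) (f0 f1 f2 f3 : (ι → Bool) → ℝ) :
    ∑ s0, ∑ s1, ∑ s2, ∑ s3, (w s0 * f0 s0) * (w s1 * f1 s1) * (w s2 * f2 s2) * (w s3 * f3 s3)
      = (∑ s, w s * f0 s) * (∑ s, w s * f1 s) * (∑ s, w s * f2 s) * (∑ s, w s * f3 s) := by
  simp only [← Finset.mul_sum, ← Finset.sum_mul]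

/-- the four-replica exponent in rotated variables -/
lemma Q4 (s0 s1 s2 s3 : ι → Bool) :
    Q K h s0 + Q K h s1 + Q K h s2 + Q K h s3 =
      ∑ j : (ι × ι × Fin 4) ⊕ ι, (Sum.elim (fun p : ι × ι × Fin 4 => K p.1 p.2.1 / 2)
        (fun x => 2 * h x)) j *
        (Sum.elim (fun (p : ι × ι × Fin 4) (r : Rep ι) => Y p.2.2 (r p.1) * Y p.2.2 (r p.2.1))
          (fun (x : ι) (r : Rep ι) => Y 0 (r x))) j (fun i => (s0 i, s1 i, s2 i, s3 i)) := by
  rw [Fintype.sum_sum_type]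
  simp only [Sum.elim_inl, Sum.elim_inr, Fintype.sum_prod_type, Fin.sum_univ_four, Y, Q]
  simp only [Finset.sum_div, ← Finset.sum_add_distrib]
  apply Finset.sum_congr rfl
  intro x _
  have : ∀ (S0 S1 S2 S3 : ℝ) (H0 H1 H2 H3 : ℝ), S0 + H0 + (S1 + H1) + (S2 + H2) + (S3 + H3)
    = (S0 + S1 + S2 + S3) + (H0 + H1 + H2 + H3) := by intros; ring
  rw [this, ← Finset.sum_add_distrib, ← Finset.sum_add_distrib, ← Finset.sum_add_distrib]
  congr 1
  · apply Finset.sum_congr rfl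
    intro y _
    ring
  · ring


/-- sign tables -/
def e1 (p : Fin 4) : ℝ := match p with | 0 => 1 | 1 => 1 | 2 => -1 | 3 => -1
def e2 (p : Fin 4) : ℝ := match p with | 0 => 1 | 1 => -1 | 2 => 1 | 3 => -1
def e3 (p : Fin 4) : ℝ := match p with | 0 => -1 | 1 => 1 | 2 => 1 | 3 => -1

def g (a b c : ι) (t : Fin 4 × Fin 4 × Fin 4) (l : Fin 4) (s : ι → Bool) : ℝ :=
  (if t.1 = l then sv (s a) else 1) * (if t.2.1 = l then sv (s b) else 1) *
    (if t.2.2 = l then sv (s c) else 1)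

/-- expansion of the rotated three-point product -/
lemma expand64 (w : (ι → Bool) → ℝ) (a b c : ι) :
    ∑ S : (ι → Bool) × (ι → Bool) × (ι → Bool) × (ι → Bool),
      (w S.1 * w S.2.1 * w S.2.2.1 * w S.2.2.2) *
      (((sv (S.1 a) + sv (S.2.1 a) - sv (S.2.2.1 a) - sv (S.2.2.2 a)) / 2) *
       ((sv (S.1 b) - sv (S.2.1 b) + sv (S.2.2.1 b) - sv (S.2.2.2 b)) / 2) *
       ((-sv (S.1 c) + sv (S.2.1 c) + sv (S.2.2.1 c) - sv (S.2.2.2 c)) / 2)) =
    -(1/2) * ((∑ s, w s * (sv (s a) * sv (s b) * sv (s c))) * (∑ s, w s) ^ 3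
      - (∑ s, w s * (sv (s a) * sv (s b))) * (∑ s, w s * sv (s c)) * (∑ s, w s) ^ 2
      - (∑ s, w s * (sv (s a) * sv (s c))) * (∑ s, w s * sv (s b)) * (∑ s, w s) ^ 2
      - (∑ s, w s * (sv (s b) * sv (s c))) * (∑ s, w s * sv (s a)) * (∑ s, w s) ^ 2
      + 2 * (∑ s, w s * sv (s a)) * (∑ s, w s * sv (s b)) * (∑ s, w s * sv (s c))
        * (∑ s, w s)) := by
  have step : ∀ S : (ι → Bool) × (ι → Bool) × (ι → Bool) × (ι → Bool),
      (w S.1 * w S.2.1 * w S.2.2.1 * w S.2.2.2) *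
      (((sv (S.1 a) + sv (S.2.1 a) - sv (S.2.2.1 a) - sv (S.2.2.2 a)) / 2) *
       ((sv (S.1 b) - sv (S.2.1 b) + sv (S.2.2.1 b) - sv (S.2.2.2 b)) / 2) *
       ((-sv (S.1 c) + sv (S.2.1 c) + sv (S.2.2.1 c) - sv (S.2.2.2 c)) / 2)) =
      ∑ t : Fin 4 × Fin 4 × Fin 4, (e1 t.1 * e2 t.2.1 * e3 t.2.2 / 8) *
        ((w S.1 * g a b c t 0 S.1) * (w S.2.1 * g a b c t 1 S.2.1) *
          (w S.2.2.1 * g a b c t 2 S.2.2.1) * (w S.2.2.2 * g a b c t 3 S.2.2.2)) := by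
    rintro ⟨s0, s1, s2, s3⟩
    simp only [Fintype.sum_prod_type, Fin.sum_univ_four, e1, e2, e3, g]
    simp
    ring
  rw [Finset.sum_congr rfl (fun S _ => step S), Finset.sum_comm]
  have step2 : ∀ t : Fin 4 × Fin 4 × Fin 4,
      ∑ S : (ι → Bool) × (ι → Bool) × (ι → Bool) × (ι → Bool),
      (e1 t.1 * e2 t.2.1 * e3 t.2.2 / 8) *
        ((w S.1 * g a b c t 0 S.1) * (w S.2.1 * g a b c t 1 S.2.1) *
          (w S.2.2.1 * g a b c t 2 S.2.2.1) * (w S.2.2.2 * g a b c t 3 S.2.2.2)) =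
      (e1 t.1 * e2 t.2.1 * e3 t.2.2 / 8) *
        ((∑ s, w s * g a b c t 0 s) * (∑ s, w s * g a b c t 1 s) *
          (∑ s, w s * g a b c t 2 s) * (∑ s, w s * g a b c t 3 s)) := by
    intro t
    rw [← Finset.mul_sum]
    congr 1
    simp only [Fintype.sum_prod_type]
    exact sum4 w _ _ _ _
  rw [Finset.sum_congr rfl (fun t _ => step2 t)]
  simp only [Fintype.sum_prod_type, Fin.sum_univ_four, e1, e2, e3, g]
  simp
  ring

end GHS

end Vale.Agent.H15.Ising
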