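import Mathlib
import Vale.Agent.H15.Ising

namespace Vale.Agent.H15.Ising

open Finset

variable {ι : Type*} [Fintype ι] [DecidableEq ι]
variable (K : ι → ι → ℝ) (h : ι → ℝ)

lemma Z_def : A K h (fun _ => 1) = ∑ s, Real.exp (Q K h s) := by simp [A]

/-- GHS inequality, unnormalised -/
theorem ghs_un (hK : ∀ x y, 0 ≤ K x y) (hh : ∀ x, 0 ≤ h x) (a b c : ι) :
    A K h (fun s => sv (s a) * sv (s b) * sv (s c)) * A K h (fun _ => 1) ^ 3
      - A K h (fun s => sv (s a) * sv (s b)) * A K h (fun s => sv (s c)) * A K h (fun _ => 1) ^ 2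
      - A K h (fun s => sv (s a) * sv (s c)) * A K h (fun s => sv (s b)) * A K h (fun _ => 1) ^ 2
      - A K h (fun s => sv (s b) * sv (s c)) * A K h (fun s => sv (s a)) * A K h (fun _ => 1) ^ 2
      + 2 * A K h (fun s => sv (s a)) * A K h (fun s => sv (s b)) * A K h (fun s => sv (s c))
        * A K h (fun _ => 1) ≤ 0 := by
  have hpos := pos_exp_sum (ι := ι) (κ := (ι × ι × Fin 4) ⊕ ι) Finset.univ
    (Sum.elim (fun p : ι × ι × Fin 4 => K p.1 p.2.1 / 2) (fun x => 2 * h x))
    (by rintro (p | x)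
        · simp only [Sum.elim_inl]; have := hK p.1 p.2.1; positivity
        · simp only [Sum.elim_inr]; have := hh x; positivity)
    (Sum.elim (fun (p : ι × ι × Fin 4) (r : Rep ι) => Y p.2.2 (r p.1) * Y p.2.2 (r p.2.1))
          (fun (x : ι) (r : Rep ι) => Y 0 (r x)))
    (by rintro (p | x)
        · simp only [Sum.elim_inl]
          exact (Mon ι).mul_mem (Submonoid.subset_closure ⟨p.2.2, p.1, rfl⟩)
            (Submonoid.subset_closure ⟨p.2.2, p.2.1, rfl⟩)
        · simp only [Sum.elim_inr]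
          exact Submonoid.subset_closure ⟨0, x, rfl⟩)
  have hM : (fun r : Rep ι => Y 1 (r a)) * (fun r => Y 2 (r b)) * (fun r => Y 3 (r c)) ∈ Mon ι :=
    (Mon ι).mul_mem ((Mon ι).mul_mem (Submonoid.subset_closure ⟨1, a, rfl⟩)
      (Submonoid.subset_closure ⟨2, b, rfl⟩)) (Submonoid.subset_closure ⟨3, c, rfl⟩)
  have h0 := hpos _ hM
  -- change variables
  let e : (ι → Bool) × (ι → Bool) × (ι → Bool) × (ι → Bool) ≃ Rep ι :=
    { toFun := fun S i => (S.1 i, S.2.1 i, S.2.2.1 i, S.2.2.2 i)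
      invFun := fun r => (fun i => (r i).1, fun i => (r i).2.1, fun i => (r i).2.2.1,
        fun i => (r i).2.2.2)
      left_inv := fun S => rfl
      right_inv := fun r => rfl }
  rw [← e.sum_comp] at h0
  have h1 : ∀ S : (ι → Bool) × (ι → Bool) × (ι → Bool) × (ι → Bool),
      Real.exp (∑ j ∈ (Finset.univ : Finset ((ι × ι × Fin 4) ⊕ ι)),
        (Sum.elim (fun p : ι × ι × Fin 4 => K p.1 p.2.1 / 2)
        (fun x => 2 * h x)) j *
        (Sum.elim (fun (p : ι × ι × Fin 4) (r : Rep ι) => Y p.2.2 (r p.1) * Y p.2.2 (r p.2.1))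
          (fun (x : ι) (r : Rep ι) => Y 0 (r x))) j (e S)) *
      ((fun r : Rep ι => Y 1 (r a)) * (fun r : Rep ι => Y 2 (r b)) * (fun r : Rep ι => Y 3 (r c))) (e S) =
      (Real.exp (Q K h S.1) * Real.exp (Q K h S.2.1) * Real.exp (Q K h S.2.2.1) *
        Real.exp (Q K h S.2.2.2)) *
      (((sv (S.1 a) + sv (S.2.1 a) - sv (S.2.2.1 a) - sv (S.2.2.2 a)) / 2) *
       ((sv (S.1 b) - sv (S.2.1 b) + sv (S.2.2.1 b) - sv (S.2.2.2 b)) / 2) *
       ((-sv (S.1 c) + sv (S.2.1 c) + sv (S.2.2.1 c) - sv (S.2.2.2 c)) / 2)) := by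
    intro S
    rw [← Real.exp_add, ← Real.exp_add, ← Real.exp_add, Q4 K h S.1 S.2.1 S.2.2.1 S.2.2.2]
    rfl
  rw [Finset.sum_congr rfl (fun S _ => h1 S)] at h0
  have h2 := expand64 (fun s => Real.exp (Q K h s)) a b c
  rw [h2] at h0
  simp only [Z_def]
  simp only [A]
  linarith

/-- covariance -/
noncomputable def cov (f g : (ι → Bool) → ℝ) : ℝ :=
  E K h (fun s => f s * g s) - E K h f * E K h g

lemma E_add (f g : (ι → Bool) → ℝ) : E K h (fun s => f s + g s) = E K h f + E K h g := by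
  unfold E A
  rw [← add_div, ← Finset.sum_add_distrib]
  congr 1
  apply Finset.sum_congr rfl; intro s _; ring

lemma E_smul (c : ℝ) (f : (ι → Bool) → ℝ) : E K h (fun s => c * f s) = c * E K h f := by
  unfold E A
  rw [← mul_div_assoc, Finset.mul_sum]
  congr 1
  apply Finset.sum_congr rfl; intro s _; ring

lemma E_sum {κ : Type*} (S : Finset κ) (f : κ → (ι → Bool) → ℝ) :
    E K h (fun s => ∑ j ∈ S, f j s) = ∑ j ∈ S, E K h (f j) := by
  classical
  induction S using Finset.induction_on with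
  | empty => simp [E, A]
  | insert j S hj ih =>
    simp only [Finset.sum_insert hj]
    rw [E_add, ih]

lemma E_one : E K h (fun _ => 1) = 1 := by
  unfold E; exact div_self (A_one_pos K h).ne'

lemma E_const (c : ℝ) : E K h (fun _ => c) = c := by
  have := E_smul K h c (fun _ => 1)
  simp only [mul_one] at this
  rw [this, E_one, mul_one]

/-- GHS in normalised form -/
theorem ghs (hK : ∀ x y, 0 ≤ K x y) (hh : ∀ x, 0 ≤ h x) (a b c : ι) :
    E K h (fun s => sv (s a) * sv (s b) * sv (s c))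
      - E K h (fun s => sv (s a) * sv (s b)) * E K h (fun s => sv (s c))
      - E K h (fun s => sv (s a) * sv (s c)) * E K h (fun s => sv (s b))
      - E K h (fun s => sv (s b) * sv (s c)) * E K h (fun s => sv (s a))
      + 2 * E K h (fun s => sv (s a)) * E K h (fun s => sv (s b)) * E K h (fun s => sv (s c))
      ≤ 0 := by
  have h0 := ghs_un K h hK hh a b c
  have hZ := A_one_pos K h
  rw [A_eq K h (fun s => sv (s a) * sv (s b) * sv (s c)), A_eq K h (fun s => sv (s a) * sv (s b)),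
    A_eq K h (fun s => sv (s a) * sv (s c)), A_eq K h (fun s => sv (s b) * sv (s c)),
    A_eq K h (fun s => sv (s a)), A_eq K h (fun s => sv (s b)), A_eq K h (fun s => sv (s c))] at h0
  have h1 : (E K h (fun s => sv (s a) * sv (s b) * sv (s c))
      - E K h (fun s => sv (s a) * sv (s b)) * E K h (fun s => sv (s c))
      - E K h (fun s => sv (s a) * sv (s c)) * E K h (fun s => sv (s b))
      - E K h (fun s => sv (s b) * sv (s c)) * E K h (fun s => sv (s a))
      + 2 * E K h (fun s => sv (s a)) * E K h (fun s => sv (s b)) * E K h (fun s => sv (s c)))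
      * (A K h (fun _ => 1)) ^ 4 ≤ 0 := by
    refine le_trans (le_of_eq ?_) h0
    ring
  by_contra hcon
  rw [not_le] at hcon
  have : 0 < _ * (A K h (fun _ => 1)) ^ 4 := mul_pos hcon (by positivity)
  linarith

/-- FKG -/
theorem Q_supermod (hK : ∀ x y, 0 ≤ K x y) (s t : ι → Bool) :
    Q K h s + Q K h t ≤ Q K h (s ⊓ t) + Q K h (s ⊔ t) := by
  unfold Q
  have h1 : ∀ x y, K x y * (sv (s x) * sv (s y)) + K x y * (sv (t x) * sv (t y)) ≤
      K x y * (sv ((s ⊓ t) x) * sv ((s ⊓ t) y)) + K x y * (sv ((s ⊔ t) x) * sv ((s ⊔ t) y)) := by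
    intro x y
    rw [← mul_add, ← mul_add]
    apply mul_le_mul_of_nonneg_left _ (hK x y)
    simp only [Pi.inf_apply, Pi.sup_apply]
    cases s x <;> cases s y <;> cases t x <;> cases t y <;> simp [sv] <;> norm_num
  have h2 : ∀ x, h x * sv (s x) + h x * sv (t x) =
      h x * sv ((s ⊓ t) x) + h x * sv ((s ⊔ t) x) := by
    intro x
    simp only [Pi.inf_apply, Pi.sup_apply]
    cases s x <;> cases t x <;> simp [sv]
  have h3 : ∑ x, ∑ y, K x y * (sv (s x) * sv (s y)) + ∑ x, ∑ y, K x y * (sv (t x) * sv (t y)) ≤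
      ∑ x, ∑ y, K x y * (sv ((s ⊓ t) x) * sv ((s ⊓ t) y)) +
      ∑ x, ∑ y, K x y * (sv ((s ⊔ t) x) * sv ((s ⊔ t) y)) := by
    rw [← Finset.sum_add_distrib, ← Finset.sum_add_distrib]
    apply Finset.sum_le_sum; intro x _
    rw [← Finset.sum_add_distrib, ← Finset.sum_add_distrib]
    apply Finset.sum_le_sum; intro y _
    exact h1 x y
  have h4 : ∑ x, h x * sv (s x) + ∑ x, h x * sv (t x) =
      ∑ x, h x * sv ((s ⊓ t) x) + ∑ x, h x * sv ((s ⊔ t) x) := by
    rw [← Finset.sum_add_distrib, ← Finset.sum_add_distrib]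
    exact Finset.sum_congr rfl (fun x _ => h2 x)
  linarith

theorem fkg_cov (hK : ∀ x y, 0 ≤ K x y) (f g : (ι → Bool) → ℝ) (hf : Monotone f)
    (hg : Monotone g) : 0 ≤ cov K h f g := by
  -- shift to nonnegative functions
  obtain ⟨cf, hcf⟩ : ∃ c : ℝ, ∀ s, 0 ≤ f s + c := by
    refine ⟨-(f ⊥), fun s => ?_⟩
    have := hf (bot_le : ⊥ ≤ s); linarith
  obtain ⟨cg, hcg⟩ : ∃ c : ℝ, ∀ s, 0 ≤ g s + c := by
    refine ⟨-(g ⊥), fun s => ?_⟩
    have := hg (bot_le : ⊥ ≤ s); linarith
  have h0 := fkg (μ := fun s => Real.exp (Q K h s)) (f := fun s => f s + cf)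
    (g := fun s => g s + cg) (fun s => (Real.exp_pos _).le) hcf hcg
    (fun s t hst => by have := hf hst; simp only; linarith)
    (fun s t hst => by have := hg hst; simp only; linarith)
    (fun a b => by
      rw [← Real.exp_add, ← Real.exp_add]
      exact Real.exp_le_exp.mpr (Q_supermod K h hK a b))
  have hZ := A_one_pos K h
  have e1 : ∑ s, Real.exp (Q K h s) * (f s + cf) = A K h f + cf * A K h (fun _ => 1) := by
    unfold A; rw [Finset.mul_sum, ← Finset.sum_add_distrib]
    apply Finset.sum_congr rfl; intro s _; ring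
  have e2 : ∑ s, Real.exp (Q K h s) * (g s + cg) = A K h g + cg * A K h (fun _ => 1) := by
    unfold A; rw [Finset.mul_sum, ← Finset.sum_add_distrib]
    apply Finset.sum_congr rfl; intro s _; ring
  have e3 : ∑ s, Real.exp (Q K h s) * ((f s + cf) * (g s + cg)) =
      A K h (fun s => f s * g s) + cf * A K h g + cg * A K h f + cf * cg * A K h (fun _ => 1) := by
    unfold A; rw [Finset.mul_sum, Finset.mul_sum, Finset.mul_sum, ← Finset.sum_add_distrib,
      ← Finset.sum_add_distrib, ← Finset.sum_add_distrib]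
    apply Finset.sum_congr rfl; intro s _; ring
  rw [e1, e2, e3, ← Z_def] at h0
  unfold cov E
  have : 0 ≤ (A K h (fun s => f s * g s) * A K h (fun _ => 1) - A K h f * A K h g)
      / (A K h (fun _ => 1)) ^ 2 := by
    apply div_nonneg _ (by positivity)
    nlinarith
  refine le_trans this (le_of_eq ?_)
  field_simp

end Vale.Agent.H15.Ising
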