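import Mathlib
import Vale.Agent.H15.Ising2

namespace Vale.Agent.H15.Ising

open Finset

variable {ι : Type*} [Fintype ι] [DecidableEq ι]
variable (K : ι → ι → ℝ) (h : ι → ℝ)

/-- linear observable -/
noncomputable def G (g : ι → ℝ) (s : ι → Bool) : ℝ := ∑ x, g x * sv (s x)

lemma Q_line (g : ι → ℝ) (t : ℝ) (s : ι → Bool) :
    Q K (fun x => h x + t * g x) s = Q K h s + t * G g s := by
  unfold Q G
  rw [Finset.mul_sum, add_assoc, ← Finset.sum_add_distrib]
  congr 1
  apply Finset.sum_congr rfl; intro x _; ring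

lemma hasDerivAt_A (g : ι → ℝ) (f : (ι → Bool) → ℝ) (t : ℝ) :
    HasDerivAt (fun t => A K (fun x => h x + t * g x) f)
      (A K (fun x => h x + t * g x) (fun s => f s * G g s)) t := by
  unfold A
  simp only [Q_line]
  have : ∀ s : ι → Bool, HasDerivAt (fun t => Real.exp (Q K h s + t * G g s) * f s)
      (Real.exp (Q K h s + t * G g s) * (f s * G g s)) t := by
    intro s
    have h1 : HasDerivAt (fun t : ℝ => Q K h s + t * G g s) (G g s) t := by
      simpa using ((hasDerivAt_id t).mul_const (G g s)).const_add (Q K h s)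
    have h2 := (h1.exp).mul_const (f s)
    exact h2.congr_deriv (by ring)
  exact HasDerivAt.fun_sum (u := Finset.univ) (fun s _ => this s)

lemma hasDerivAt_E (g : ι → ℝ) (f : (ι → Bool) → ℝ) (t : ℝ) :
    HasDerivAt (fun t => E K (fun x => h x + t * g x) f)
      (cov K (fun x => h x + t * g x) f (G g)) t := by
  have h1 := hasDerivAt_A K h g f t
  have h2 := hasDerivAt_A K h g (fun _ => 1) t
  have hZ := (A_one_pos K (fun x => h x + t * g x)).ne'
  have h3 := h1.div h2 hZ
  refine HasDerivAt.congr_deriv (f := fun t => E K (fun x => h x + t * g x) f) h3 ?_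
  unfold cov E
  simp only [one_mul]
  field_simp

lemma E_const_mul_right (f : (ι → Bool) → ℝ) (c : ℝ) :
    E K h (fun s => f s * c) = E K h f * c := by
  have := E_smul K h c f
  rw [mul_comm (E K h f) c, ← this]
  congr 1; funext s; ring

lemma E_mul_G (g : ι → ℝ) (f : (ι → Bool) → ℝ) :
    E K h (fun s => f s * G g s) = ∑ x, g x * E K h (fun s => f s * sv (s x)) := by
  unfold G
  have : (fun s => f s * ∑ x, g x * sv (s x)) = fun s => ∑ x, g x * (f s * sv (s x)) := by
    funext s; rw [Finset.mul_sum]; apply Finset.sum_congr rfl; intro x _; ring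
  rw [this, E_sum]
  apply Finset.sum_congr rfl; intro x _
  exact E_smul K h (g x) _

lemma E_G (g : ι → ℝ) : E K h (G g) = ∑ x, g x * E K h (fun s => sv (s x)) := by
  have := E_mul_G K h g (fun _ => 1)
  simpa using this

lemma cov_G (g : ι → ℝ) (f : (ι → Bool) → ℝ) :
    cov K h f (G g) = ∑ x, g x * cov K h f (fun s => sv (s x)) := by
  unfold cov
  rw [E_mul_G, E_G, Finset.mul_sum, ← Finset.sum_sub_distrib]
  apply Finset.sum_congr rfl; intro x _; ring

/-- derivative of the covariance along a line -/
lemma hasDerivAt_cov (g : ι → ℝ) (o : ι) (t : ℝ) :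
    HasDerivAt (fun t => cov K (fun x => h x + t * g x) (fun s => sv (s o)) (G g))
      (∑ x, ∑ y, g x * g y *
        (E K (fun x => h x + t * g x) (fun s => sv (s o) * sv (s x) * sv (s y))
        - E K (fun x => h x + t * g x) (fun s => sv (s o) * sv (s x)) *
            E K (fun x => h x + t * g x) (fun s => sv (s y))
        - E K (fun x => h x + t * g x) (fun s => sv (s o) * sv (s y)) *
            E K (fun x => h x + t * g x) (fun s => sv (s x))
        - E K (fun x => h x + t * g x) (fun s => sv (s x) * sv (s y)) *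
            E K (fun x => h x + t * g x) (fun s => sv (s o))
        + 2 * E K (fun x => h x + t * g x) (fun s => sv (s o)) *
            E K (fun x => h x + t * g x) (fun s => sv (s x)) *
            E K (fun x => h x + t * g x) (fun s => sv (s y)))) t := by
  have e : (fun t => cov K (fun x => h x + t * g x) (fun s => sv (s o)) (G g)) =
      fun t => ∑ x, g x * (E K (fun x => h x + t * g x) (fun s => sv (s o) * sv (s x)) -
        E K (fun x => h x + t * g x) (fun s => sv (s o)) *
        E K (fun x => h x + t * g x) (fun s => sv (s x))) := by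
    funext t; rw [cov_G]; rfl
  rw [e]
  have h1 : ∀ x : ι, HasDerivAt (fun t => g x * (E K (fun x => h x + t * g x)
        (fun s => sv (s o) * sv (s x)) -
        E K (fun x => h x + t * g x) (fun s => sv (s o)) *
        E K (fun x => h x + t * g x) (fun s => sv (s x))))
      (g x * (cov K (fun x => h x + t * g x) (fun s => sv (s o) * sv (s x)) (G g) -
        (cov K (fun x => h x + t * g x) (fun s => sv (s o)) (G g) *
          E K (fun x => h x + t * g x) (fun s => sv (s x)) +
        E K (fun x => h x + t * g x) (fun s => sv (s o)) *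
          cov K (fun x => h x + t * g x) (fun s => sv (s x)) (G g)))) t := by
    intro x
    exact ((hasDerivAt_E K h g _ t).sub ((hasDerivAt_E K h g _ t).mul
      (hasDerivAt_E K h g _ t))).const_mul (g x)
  have h3 := HasDerivAt.fun_sum (u := Finset.univ) (fun x _ => h1 x)
  refine h3.congr_deriv ?_
  apply Finset.sum_congr rfl; intro x _
  rw [cov_G, cov_G, cov_G, Finset.mul_sum, Finset.sum_mul, ← Finset.sum_add_distrib,
    ← Finset.sum_sub_distrib, Finset.mul_sum]
  apply Finset.sum_congr rfl; intro y _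
  unfold cov
  ring

lemma cov_antitone (hK : ∀ x y, 0 ≤ K x y) (hh : ∀ x, 0 ≤ h x) (g : ι → ℝ) (hg : ∀ x, 0 ≤ g x)
    (o : ι) {t u : ℝ} (ht : 0 ≤ t) (htu : t ≤ u) :
    cov K (fun x => h x + u * g x) (fun s => sv (s o)) (G g) ≤
    cov K (fun x => h x + t * g x) (fun s => sv (s o)) (G g) := by
  have hanti : AntitoneOn (fun t => cov K (fun x => h x + t * g x) (fun s => sv (s o)) (G g))
      (Set.Ici 0) := by
    apply antitoneOn_of_deriv_nonpos (convex_Ici 0)
    · exact fun t _ => (hasDerivAt_cov K h g o t).continuousAt.continuousWithinAt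
    · exact fun t _ => (hasDerivAt_cov K h g o t).differentiableAt.differentiableWithinAt
    · intro t ht
      rw [interior_Ici] at ht
      rw [(hasDerivAt_cov K h g o t).deriv]
      apply Finset.sum_nonpos; intro x _
      apply Finset.sum_nonpos; intro y _
      apply mul_nonpos_of_nonneg_of_nonpos (mul_nonneg (hg x) (hg y))
      exact ghs K _ hK (fun z => add_nonneg (hh z) (mul_nonneg (le_of_lt ht) (hg z))) o x y
  exact hanti ht (le_trans ht htu) htu

/-- magnetisation -/
noncomputable def mag (o : ι) : ℝ := E K h (fun s => sv (s o))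

lemma mag_diff (g : ι → ℝ) (o : ι) {t u : ℝ} (htu : t < u) :
    ∃ ξ ∈ Set.Ioo t u, mag K (fun x => h x + u * g x) o - mag K (fun x => h x + t * g x) o =
      (u - t) * cov K (fun x => h x + ξ * g x) (fun s => sv (s o)) (G g) := by
  obtain ⟨ξ, hξ, h1⟩ := exists_hasDerivAt_eq_slope
    (fun t => mag K (fun x => h x + t * g x) o)
    (fun t => cov K (fun x => h x + t * g x) (fun s => sv (s o)) (G g)) htu
    (fun t _ => (hasDerivAt_E K h g _ t).continuousAt.continuousWithinAt)
    (fun t _ => hasDerivAt_E K h g _ t)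
  refine ⟨ξ, hξ, ?_⟩
  rw [h1]
  have : u - t ≠ 0 := (sub_pos.mpr htu).ne'
  field_simp

lemma G_mono (g : ι → ℝ) (hg : ∀ x, 0 ≤ g x) : Monotone (G g) := by
  intro s t hst
  unfold G
  apply Finset.sum_le_sum; intro x _
  exact mul_le_mul_of_nonneg_left (sv_mono (hst x)) (hg x)

lemma sv_coord_mono (o : ι) : Monotone (fun s : ι → Bool => sv (s o)) :=
  fun _ _ hst => sv_mono (hst o)

lemma mag_mono (hK : ∀ x y, 0 ≤ K x y) (h' : ι → ℝ) (hh : ∀ x, h x ≤ h' x) (o : ι) :
    mag K h o ≤ mag K h' o := by
  obtain ⟨ξ, _, h1⟩ := mag_diff K h (fun x => h' x - h x) o (zero_lt_one (α := ℝ))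
  have h2 := fkg_cov K (fun x => h x + ξ * (h' x - h x)) hK (fun s => sv (s o))
    (G (fun x => h' x - h x)) (sv_coord_mono o) (G_mono _ (fun x => sub_nonneg.mpr (hh x)))
  simp only [one_mul, zero_mul, add_zero, sub_zero, add_sub_cancel] at h1
  linarith

end Vale.Agent.H15.Ising
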