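import Mathlib
import Vale.Agent.H15.Ising3

namespace Vale.Agent.H15.Ising

open Finset

variable {ι : Type*} [Fintype ι] [DecidableEq ι]
variable (K : ι → ι → ℝ) (h : ι → ℝ)

lemma Q_neg (s : ι → Bool) : Q K (fun _ => 0) (fun x => !(s x)) = Q K (fun _ => 0) s := by
  unfold Q
  have h1 : ∀ b : Bool, sv (!b) = - sv b := by intro b; cases b <;> simp [sv]
  simp [h1]

lemma mag_zero (o : ι) : mag K (fun _ => 0) o = 0 := by
  unfold mag E
  have h1 : ∀ b : Bool, sv (!b) = - sv b := by intro b; cases b <;> simp [sv]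
  have : A K (fun _ => 0) (fun s => sv (s o)) = - A K (fun _ => 0) (fun s => sv (s o)) := by
    let e : (ι → Bool) ≃ (ι → Bool) := 
      { toFun := fun s x => !(s x), invFun := fun s x => !(s x),
        left_inv := fun s => by funext x; simp, right_inv := fun s => by funext x; simp }
    conv_lhs => unfold A
    rw [← e.sum_comp]
    unfold A
    rw [← Finset.sum_neg_distrib]
    apply Finset.sum_congr rfl
    intro s _
    change Real.exp (Q K (fun _ => 0) (fun x => !(s x))) * sv (!(s o)) = _
    rw [Q_neg, h1]; ring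
  have h2 : A K (fun _ => 0) (fun s => sv (s o)) = 0 := by linarith
  rw [h2, zero_div]

lemma mag_nonneg (hK : ∀ x y, 0 ≤ K x y) (hh : ∀ x, 0 ≤ h x) (o : ι) : 0 ≤ mag K h o := by
  rw [← mag_zero K o]; exact mag_mono K _ hK h hh o

/-- scaling of the magnetisation: `m(ε g) ≥ (ε/T) m(T g)` -/
lemma mag_scale (hK : ∀ x y, 0 ≤ K x y) (g : ι → ℝ) (hg : ∀ x, 0 ≤ g x) (o : ι) {ε T : ℝ}
    (hε : 0 < ε) (hT : ε < T) :
    ε / T * mag K (fun x => T * g x) o ≤ mag K (fun x => ε * g x) o := by
  obtain ⟨ξ₁, hξ₁, h1⟩ := mag_diff K (fun _ => 0) g o hε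
  obtain ⟨ξ₂, hξ₂, h2⟩ := mag_diff K (fun _ => 0) g o hT
  have h3 := cov_antitone K (fun _ => 0) hK (fun _ => le_rfl) g hg o hξ₁.1.le
    (hξ₁.2.le.trans hξ₂.1.le)
  simp only [zero_add, zero_mul, mag_zero, sub_zero] at h1 h2 h3
  have hT0 : 0 < T := hε.trans hT
  rw [div_mul_eq_mul_div, div_le_iff₀ hT0]
  have h4 : mag K (fun x => T * g x) o - mag K (fun x => ε * g x) o ≤
      (T - ε) * cov K (fun x => ξ₁ * g x) (fun s => sv (s o)) (G g) := by
    rw [h2]; exact mul_le_mul_of_nonneg_left h3 (by linarith)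
  nlinarith

/-- `m(T g) ≥ T m'(T g)` -/
lemma mag_ge_deriv (hK : ∀ x y, 0 ≤ K x y) (g : ι → ℝ) (hg : ∀ x, 0 ≤ g x) (o : ι) {T : ℝ}
    (hT : 0 < T) :
    T * cov K (fun x => T * g x) (fun s => sv (s o)) (G g) ≤ mag K (fun x => T * g x) o := by
  obtain ⟨ξ₁, hξ₁, h1⟩ := mag_diff K (fun _ => 0) g o hT
  have h3 := cov_antitone K (fun _ => 0) hK (fun _ => le_rfl) g hg o hξ₁.1.le hξ₁.2.le
  simp only [zero_add, zero_mul, mag_zero, sub_zero] at h1 h3
  rw [h1]
  exact mul_le_mul_of_nonneg_left h3 hT.le

/-- `m(h+g) ≤ m(h) + m'(h)[g]` -/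
lemma mag_le_tangent (hK : ∀ x y, 0 ≤ K x y) (hh : ∀ x, 0 ≤ h x) (g : ι → ℝ)
    (hg : ∀ x, 0 ≤ g x) (o : ι) :
    mag K (fun x => h x + g x) o ≤ mag K h o + cov K h (fun s => sv (s o)) (G g) := by
  obtain ⟨ξ₁, hξ₁, h1⟩ := mag_diff K h g o (zero_lt_one (α := ℝ))
  have h3 := cov_antitone K h hK hh g hg o le_rfl hξ₁.1.le
  simp only [one_mul, zero_mul, add_zero, sub_zero] at h1 h3
  linarith

/-- local field at `x` -/
noncomputable def θ (x : ι) (s : ι → Bool) : ℝ := h x + ∑ u, K x u * sv (s u)

lemma Q_flip (hsym : ∀ x y, K x y = K y x) (hdiag : ∀ x, K x x = 0) (x : ι) (s : ι → Bool) :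
    Q K h (Function.update s x true) - Q K h (Function.update s x false) = 2 * θ K h x s := by
  unfold Q θ
  have key : ∀ b : Bool, (∑ u, ∑ v, K u v * (sv (Function.update s x b u) *
      sv (Function.update s x b v))) =
      (∑ u ∈ univ.erase x, ∑ v ∈ univ.erase x, K u v * (sv (s u) * sv (s v))) +
      2 * sv b * ∑ u, K x u * sv (s u) := by
    intro b
    have hx : ∀ f : ι → ℝ, ∑ u, f u = f x + ∑ u ∈ univ.erase x, f u := by
      intro f; rw [Finset.add_sum_erase _ _ (Finset.mem_univ x)]
    rw [hx]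
    have e1 : ∑ v, K x v * (sv (Function.update s x b x) * sv (Function.update s x b v)) =
        sv b * ∑ u, K x u * sv (s u) := by
      rw [Finset.mul_sum]
      apply Finset.sum_congr rfl; intro v _
      by_cases hv : v = x
      · subst hv; simp [hdiag]
      · simp [Function.update_of_ne hv]; ring
    have e2 : ∑ u ∈ univ.erase x, ∑ v, K u v * (sv (Function.update s x b u) *
        sv (Function.update s x b v)) = 
        sv b * (∑ u ∈ univ.erase x, K u x * sv (s u)) +
        ∑ u ∈ univ.erase x, ∑ v ∈ univ.erase x, K u v * (sv (s u) * sv (s v)) := by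
      rw [Finset.mul_sum, ← Finset.sum_add_distrib]
      apply Finset.sum_congr rfl; intro u hu
      have hu' : u ≠ x := Finset.ne_of_mem_erase hu
      rw [hx]
      congr 1
      · simp [Function.update_of_ne hu']; ring
      · apply Finset.sum_congr rfl; intro v hv
        have hv' : v ≠ x := Finset.ne_of_mem_erase hv
        simp [Function.update_of_ne hu', Function.update_of_ne hv']
    rw [e1, e2]
    have e3 : ∑ u ∈ univ.erase x, K u x * sv (s u) = ∑ u, K x u * sv (s u) := by
      rw [hx (fun u => K x u * sv (s u)), hdiag, zero_mul, zero_add]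
      apply Finset.sum_congr rfl; intro u _; rw [hsym]
    rw [e3]; ring
  have key2 : ∀ b : Bool, ∑ u, h u * sv (Function.update s x b u) =
      h x * sv b + ∑ u ∈ univ.erase x, h u * sv (s u) := by
    intro b
    rw [← Finset.add_sum_erase _ _ (Finset.mem_univ x)]
    congr 1
    · simp
    · apply Finset.sum_congr rfl; intro u hu
      simp [Function.update_of_ne (Finset.ne_of_mem_erase hu)]
  rw [key true, key false, key2 true, key2 false]
  simp only [sv, if_true]
  norm_num
  ring

/-- DLR equation at one site -/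
lemma dlr (hsym : ∀ x y, K x y = K y x) (hdiag : ∀ x, K x x = 0) (x : ι)
    (F : (ι → Bool) → ℝ) (hF : ∀ s b, F (Function.update s x b) = F s) :
    E K h (fun s => F s * sv (s x)) = E K h (fun s => F s * Real.tanh (θ K h x s)) := by
  unfold E A
  congr 1
  rw [← sub_eq_zero, ← Finset.sum_sub_distrib]
  have hθ : ∀ s b, θ K h x (Function.update s x b) = θ K h x s := by
    intro s b
    unfold θ
    congr 1
    apply Finset.sum_congr rfl; intro u _
    by_cases hu : u = x
    · subst hu; simp [hdiag]
    · rw [Function.update_of_ne hu]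
  refine Finset.sum_involution (fun s _ => Function.update s x (!(s x))) ?_ ?_
    (fun s _ => Finset.mem_univ _) ?_
  · intro s _
    dsimp only
    rw [hF, hθ]
    simp only [Function.update_self]
    have hup : s = Function.update s x (s x) := by simp
    set T := θ K h x s with hT
    have hq := Q_flip K h hsym hdiag x s
    rw [← hT] at hq
    have ht : Real.tanh T * (Real.exp T + Real.exp (-T)) = Real.exp T - Real.exp (-T) := by
      rw [Real.tanh_eq_sinh_div_cosh, Real.sinh_eq, Real.cosh_eq]
      have : Real.exp T + Real.exp (-T) ≠ 0 := by positivity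
      field_simp
    -- write both weights via a common factor
    set R := Real.exp ((Q K h (Function.update s x true) + Q K h (Function.update s x false)) / 2)
      with hR
    have hp : Real.exp (Q K h (Function.update s x true)) = R * Real.exp T := by
      rw [hR, ← Real.exp_add]; congr 1; linarith
    have hm : Real.exp (Q K h (Function.update s x false)) = R * Real.exp (-T) := by
      rw [hR, ← Real.exp_add]; congr 1; linarith
    cases hsx : s x
    · have e1 : Real.exp (Q K h s) = R * Real.exp (-T) := by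
        rw [← hm]; congr 2; rw [← hsx]; simp
      simp only [Bool.not_false]
      rw [e1, hp]
      simp only [sv]
      norm_num
      linear_combination (-(R * F s)) * ht
    · have e1 : Real.exp (Q K h s) = R * Real.exp T := by
        rw [← hp]; congr 2; rw [← hsx]; simp
      simp only [Bool.not_true]
      rw [e1, hm]
      simp only [sv]
      norm_num
      linear_combination (-(R * F s)) * ht
  · intro s _ _ hcon
    have := congrFun hcon x
    simp at this
  · intro s _
    simp

lemma tanh_sub_ge {a b B : ℝ} (hab : b ≤ a) (ha : |a| ≤ B) (hb : |b| ≤ B) :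
    (a - b) / Real.cosh B ^ 2 ≤ Real.tanh a - Real.tanh b := by
  rw [Real.tanh_eq_sinh_div_cosh, Real.tanh_eq_sinh_div_cosh]
  have ca := Real.cosh_pos a
  have cb := Real.cosh_pos b
  have cB := Real.cosh_pos B
  have h1 : Real.sinh a / Real.cosh a - Real.sinh b / Real.cosh b =
      Real.sinh (a - b) / (Real.cosh a * Real.cosh b) := by
    rw [Real.sinh_sub]; field_simp
  rw [h1]
  have h2 : a - b ≤ Real.sinh (a - b) := Real.self_le_sinh_iff.mpr (by linarith)
  have h3 : Real.cosh a ≤ Real.cosh B := by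
    rw [Real.cosh_le_cosh]; exact ha.trans (le_abs_self B)
  have h4 : Real.cosh b ≤ Real.cosh B := by
    rw [Real.cosh_le_cosh]; exact hb.trans (le_abs_self B)
  apply div_le_div₀ _ h2 (by positivity) _
  · exact le_trans (by linarith) h2
  · rw [sq]; exact mul_le_mul h3 h4 cb.le cB.le

lemma cov_sub (f g₁ g₂ : (ι → Bool) → ℝ) (c : ℝ) :
    cov K h f (fun s => g₁ s - c * g₂ s) = cov K h f g₁ - c * cov K h f g₂ := by
  unfold cov
  have e1 : E K h (fun s => f s * (g₁ s - c * g₂ s)) =
      E K h (fun s => f s * g₁ s) - c * E K h (fun s => f s * g₂ s) := by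
    have : (fun s => f s * (g₁ s - c * g₂ s)) = fun s => f s * g₁ s + (-c) * (f s * g₂ s) := by
      funext s; ring
    rw [this, E_add, E_smul]; ring
  have e2 : E K h (fun s => g₁ s - c * g₂ s) = E K h g₁ - c * E K h g₂ := by
    have : (fun s => g₁ s - c * g₂ s) = fun s => g₁ s + (-c) * g₂ s := by
      funext s; ring
    rw [this, E_add, E_smul]; ring
  rw [e1, e2]; ring

/-- comparison of covariances at neighbouring sites -/
lemma cov_local (hK : ∀ x y, 0 ≤ K x y) (hsym : ∀ x y, K x y = K y x) (hdiag : ∀ x, K x x = 0)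
    {o x y : ι} (hox : o ≠ x) {κ B : ℝ} (hκ : κ ≤ K x y)
    (hB : ∀ s, |θ K h x s| ≤ B) :
    (2 * κ / Real.cosh B ^ 2) / 2 * cov K h (fun s => sv (s o)) (fun s => sv (s y)) ≤
      cov K h (fun s => sv (s o)) (fun s => sv (s x)) := by
  have h1 : cov K h (fun s => sv (s o)) (fun s => sv (s x)) =
      cov K h (fun s => sv (s o)) (fun s => Real.tanh (θ K h x s)) := by
    unfold cov
    rw [dlr K h hsym hdiag x (fun s => sv (s o))
      (fun s b => by simp [Function.update_of_ne hox])]
    have := dlr K h hsym hdiag x (fun _ => 1) (fun s b => rfl)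
    simp only [one_mul] at this
    rw [this]
  rw [h1]
  have hmono : Monotone (fun s : ι → Bool => Real.tanh (θ K h x s) -
      ((2 * κ / Real.cosh B ^ 2) / 2) * sv (s y)) := by
    intro s t hst
    have hθ : θ K h x s + K x y * (sv (t y) - sv (s y)) ≤ θ K h x t := by
      unfold θ
      rw [← Finset.add_sum_erase _ _ (Finset.mem_univ y),
        ← Finset.add_sum_erase (f := fun u => K x u * sv (t u)) _ (Finset.mem_univ y)]
      have : ∑ u ∈ univ.erase y, K x u * sv (s u) ≤ ∑ u ∈ univ.erase y, K x u * sv (t u) :=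
        Finset.sum_le_sum (fun u _ => mul_le_mul_of_nonneg_left (sv_mono (hst u)) (hK x u))
      linarith
    have hsv : 0 ≤ sv (t y) - sv (s y) := sub_nonneg.mpr (sv_mono (hst y))
    have hθ' : θ K h x s ≤ θ K h x t := by
      have := mul_nonneg (hK x y) hsv; linarith
    have h2 := tanh_sub_ge hθ' (hB t) (hB s)
    have hc : 0 < Real.cosh B ^ 2 := by have := Real.cosh_pos B; positivity
    have h3 : κ * (sv (t y) - sv (s y)) / Real.cosh B ^ 2 ≤
        (θ K h x t - θ K h x s) / Real.cosh B ^ 2 := by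
      apply div_le_div_of_nonneg_right _ hc.le
      have := mul_le_mul_of_nonneg_right hκ hsv
      linarith
    have h4 : κ * (sv (t y) - sv (s y)) / Real.cosh B ^ 2 =
        2 * κ / Real.cosh B ^ 2 / 2 * sv (t y) - 2 * κ / Real.cosh B ^ 2 / 2 * sv (s y) := by
      ring
    simp only
    linarith
  have h5 := fkg_cov K h hK (fun s => sv (s o)) _ (sv_coord_mono o) hmono
  rw [cov_sub] at h5
  linarith

end Vale.Agent.H15.Ising
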