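import Mathlib
import Vale.Agent.H15.Ising4

namespace Vale.Agent.H15.Ising

open Finset

variable {ι : Type*} [Fintype ι] [DecidableEq ι]
variable (K : ι → ι → ℝ) (h : ι → ℝ)

lemma sum_ite_mem_mul (b : Finset ι) (τ : ℝ) (c : ι → ℝ) :
    ∑ y, (if y ∈ b then τ else 0) * c y = τ * ∑ y ∈ b, c y := by
  rw [Finset.mul_sum, ← Finset.sum_filter_add_sum_filter_not univ (fun y => y ∈ b)]
  have z : ∑ y ∈ univ.filter (fun y => ¬ y ∈ b), (if y ∈ b then τ else 0) * c y = 0 := by
    apply Finset.sum_eq_zero; intro y hy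
    rw [if_neg (Finset.mem_filter.mp hy).2, zero_mul]
  rw [z, add_zero]
  have : univ.filter (fun y => y ∈ b) = b := by ext; simp
  rw [this]
  apply Finset.sum_congr rfl; intro y hy; rw [if_pos hy]

/-- the covariances on the second layer are controlled by those on the first layer -/
lemma sum_cov_le (hK : ∀ x y, 0 ≤ K x y) (hsym : ∀ x y, K x y = K y x) (hdiag : ∀ x, K x x = 0)
    (o : ι) (b b1 : Finset ι) (hob : o ∉ b) (ν : ι → ι) (hν : ∀ y ∈ b1, ν y ∈ b)
    (N : ℕ) (hN : ∀ x ∈ b, (b1.filter (fun y => ν y = x)).card ≤ N)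
    {κ B : ℝ} (hκ : ∀ y ∈ b1, κ ≤ K (ν y) y) (hκ0 : 0 < κ)
    (hB : ∀ x s, |θ K h x s| ≤ B) :
    ∑ y ∈ b1, cov K h (fun s => sv (s o)) (fun s => sv (s y)) ≤
      Real.cosh B ^ 2 / κ * N * ∑ x ∈ b, cov K h (fun s => sv (s o)) (fun s => sv (s x)) := by
  have hcovnn : ∀ x, 0 ≤ cov K h (fun s => sv (s o)) (fun s => sv (s x)) := fun x =>
    fkg_cov K h hK _ _ (sv_coord_mono o) (sv_coord_mono x)
  set C := Real.cosh B ^ 2 / κ with hC
  have hcosh : 0 < Real.cosh B ^ 2 := by have := Real.cosh_pos B; positivity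
  have hC0 : 0 < C := div_pos hcosh hκ0
  have h4 : ∀ y ∈ b1, cov K h (fun s => sv (s o)) (fun s => sv (s y)) ≤
      C * cov K h (fun s => sv (s o)) (fun s => sv (s (ν y))) := by
    intro y hy
    have hne : o ≠ ν y := by intro hcon; exact hob (hcon ▸ hν y hy)
    have h5 := cov_local K h hK hsym hdiag hne (hκ y hy) (hB (ν y))
    have h6 : 2 * κ / Real.cosh B ^ 2 / 2 = C⁻¹ := by rw [hC, inv_div]; ring
    rw [h6] at h5
    calc cov K h (fun s => sv (s o)) (fun s => sv (s y))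
        = C * (C⁻¹ * cov K h (fun s => sv (s o)) (fun s => sv (s y))) := by
          field_simp
      _ ≤ _ := mul_le_mul_of_nonneg_left h5 hC0.le
  refine (Finset.sum_le_sum h4).trans ?_
  rw [← Finset.sum_fiberwise_of_maps_to (g := ν) hν, Finset.mul_sum]
  apply Finset.sum_le_sum; intro x hx
  have e3 : ∑ y ∈ b1.filter (fun y => ν y = x), C * cov K h (fun s => sv (s o))
      (fun s => sv (s (ν y))) = (b1.filter (fun y => ν y = x)).card *
      (C * cov K h (fun s => sv (s o)) (fun s => sv (s x))) := by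
    rw [Finset.sum_congr rfl (g := fun _ => C * cov K h (fun s => sv (s o))
      (fun s => sv (s x)))]
    · simp
    · intro y hy; rw [(Finset.mem_filter.mp hy).2]
  rw [e3]
  have e4 : ((b1.filter (fun y => ν y = x)).card : ℝ) ≤ N := by exact_mod_cast hN x hx
  have e5 : 0 ≤ C * cov K h (fun s => sv (s o)) (fun s => sv (s x)) :=
    mul_nonneg hC0.le (hcovnn x)
  calc _ ≤ (N:ℝ) * (C * cov K h (fun s => sv (s o)) (fun s => sv (s x))) :=
        mul_le_mul_of_nonneg_right e4 e5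
    _ = _ := by ring

/-- **Core inequality.**  If a small additional field on the layer `b` has little effect on the
magnetisation at `o`, then so do strong additional fields on `b` and on the next layer `b1`. -/
theorem core (hK : ∀ x y, 0 ≤ K x y) (hsym : ∀ x y, K x y = K y x) (hdiag : ∀ x, K x x = 0)
    (hh : ∀ x, 0 ≤ h x)
    (o : ι) (b b1 : Finset ι) (hob : o ∉ b) (ν : ι → ι) (hν : ∀ y ∈ b1, ν y ∈ b)
    (N : ℕ) (hN : ∀ x ∈ b, (b1.filter (fun y => ν y = x)).card ≤ N)
    {κ B δ T τ : ℝ} (hκ : ∀ y ∈ b1, κ ≤ K (ν y) y) (hκ0 : 0 < κ) (hδ : 0 < δ) (hT : δ < T)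
    (hτ : 0 ≤ τ) (hB : ∀ x, h x + T + ∑ y, K x y ≤ B) :
    mag K (fun x => h x + (if x ∈ b then T else 0) + (if x ∈ b1 then τ else 0)) o ≤
      mag K h o + (T / δ + τ * (Real.cosh B ^ 2 / κ * N) / δ) *
        (mag K (fun x => h x + (if x ∈ b then δ else 0)) o - mag K h o) := by
  have hT0 : 0 < T := hδ.trans hT
  set g : ι → ℝ := fun x => if x ∈ b then 1 else 0 with hg
  have hg0 : ∀ x, 0 ≤ g x := by intro x; simp only [hg]; split_ifs <;> norm_num
  have eg : ∀ t : ℝ, (fun x => h x + t * g x) = fun x => h x + (if x ∈ b then t else 0) := by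
    intro t; funext x; simp only [hg]; split_ifs <;> simp
  obtain ⟨ξ₁, hξ₁, h1⟩ := mag_diff K h g o hδ
  obtain ⟨ξ₂, hξ₂, h2⟩ := mag_diff K h g o hT
  have h3 := cov_antitone K h hK hh g hg0 o hξ₁.1.le (hξ₁.2.le.trans hξ₂.1.le)
  have h4 := cov_antitone K h hK hh g hg0 o hξ₁.1.le (hξ₁.2.le.trans hT.le)
  simp only [zero_mul, add_zero, sub_zero] at h1
  rw [eg] at h1
  rw [eg, eg] at h2
  set Δ := mag K (fun x => h x + (if x ∈ b then δ else 0)) o - mag K h o with hΔ
  set c1 := cov K (fun x => h x + ξ₁ * g x) (fun s => sv (s o)) (G g) with hc1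
  have hc1' : c1 = Δ / δ := by rw [h1]; field_simp
  -- field h1f = h + T 1_b
  set hf : ι → ℝ := fun x => h x + (if x ∈ b then T else 0) with hhf
  have hhf0 : ∀ x, 0 ≤ hf x := by
    intro x; simp only [hhf]; have := hh x; split_ifs <;> linarith
  have h5 : mag K hf o - mag K h o ≤ T / δ * Δ := by
    have e1 : mag K hf o - mag K (fun x => h x + (if x ∈ b then δ else 0)) o ≤ (T - δ) * c1 := by
      rw [h2]; exact mul_le_mul_of_nonneg_left h3 (by linarith)
    have e2 : (T - δ) * c1 + Δ = T / δ * Δ := by rw [hc1']; field_simp; ring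
    linarith
  have h6 : ∑ x ∈ b, cov K hf (fun s => sv (s o)) (fun s => sv (s x)) ≤ Δ / δ := by
    have e1 : cov K hf (fun s => sv (s o)) (G g) =
        ∑ x ∈ b, cov K hf (fun s => sv (s o)) (fun s => sv (s x)) := by
      rw [cov_G]
      have := sum_ite_mem_mul b 1 (fun x => cov K hf (fun s => sv (s o)) (fun s => sv (s x)))
      rw [one_mul] at this
      exact this
    rw [← e1, ← hc1']
    rw [eg T] at h4
    exact h4
  have hBθ : ∀ x s, |θ K hf x s| ≤ B := by
    intro x s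
    unfold θ
    refine (abs_add_le _ _).trans ?_
    have e1 : |hf x| ≤ h x + T := by
      rw [abs_of_nonneg (hhf0 x)]; simp only [hhf]; split_ifs <;> linarith
    have e2 : |∑ u, K x u * sv (s u)| ≤ ∑ u, K x u := by
      refine (Finset.abs_sum_le_sum_abs _ _).trans ?_
      apply Finset.sum_le_sum; intro u _
      rw [abs_mul, abs_sv, mul_one, abs_of_nonneg (hK x u)]
    linarith [hB x]
  have h7 := sum_cov_le K hf hK hsym hdiag o b b1 hob ν hν N hN hκ hκ0 hBθ
  have h8 := mag_le_tangent K hf hK hhf0 (fun x => if x ∈ b1 then τ else 0)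
    (fun x => by split_ifs <;> simp [hτ]) o
  rw [cov_G, sum_ite_mem_mul] at h8
  set C := Real.cosh B ^ 2 / κ * N with hC
  have hC0 : 0 ≤ C := by
    have : 0 < Real.cosh B ^ 2 := by have := Real.cosh_pos B; positivity
    rw [hC]; positivity
  have h9 : τ * ∑ y ∈ b1, cov K hf (fun s => sv (s o)) (fun s => sv (s y)) ≤
      τ * (C * (Δ / δ)) := by
    apply mul_le_mul_of_nonneg_left _ hτ
    exact h7.trans (mul_le_mul_of_nonneg_left h6 hC0)
  calc _ ≤ mag K hf o + τ * ∑ y ∈ b1, cov K hf (fun s => sv (s o)) (fun s => sv (s y)) := h8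
    _ ≤ (mag K h o + T / δ * Δ) + τ * (C * (Δ / δ)) := by linarith
    _ = _ := by ring

end Vale.Agent.H15.Ising
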